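import Mathlib

/-!
P133 (helper917): the perturbation by almost orthogonal copies (row D, part D2).
-/

open scoped ComplexOrder

namespace Vale.Agent.P133.R2.H917

universe u

section

variable {D : Type u} [NonUnitalCStarAlgebra D]

theorem term_est {X X0 Y Y0 : D} {e : ℝ} (hX : ‖X - X0‖ ≤ e) (hY : ‖Y - Y0‖ ≤ e)
    (h1 : ‖Y‖ ≤ 1) (h2 : ‖X0‖ ≤ 1) : ‖X * Y - X0 * Y0‖ ≤ 2 * e := by
  have h : X * Y - X0 * Y0 = (X - X0) * Y + X0 * (Y - Y0) := by noncomm_ring
  have he : 0 ≤ e := (norm_nonneg _).trans hX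
  rw [h]
  calc ‖(X - X0) * Y + X0 * (Y - Y0)‖ ≤ ‖(X - X0) * Y‖ + ‖X0 * (Y - Y0)‖ := norm_add_le _ _
    _ ≤ e * 1 + 1 * e := by
        refine add_le_add ((norm_mul_le _ _).trans ?_) ((norm_mul_le _ _).trans ?_)
        · exact mul_le_mul hX h1 (norm_nonneg _) he
        · exact mul_le_mul h2 hY (norm_nonneg _) zero_le_one
    _ = 2 * e := by ring

theorem lemB {ι : Type*} [Fintype ι] [DecidableEq ι] (a v : ι → D) (ha1 : ∀ k, ‖a k‖ ≤ 1)
    (hv1 : ∀ k, ‖v k‖ ≤ 1) (e : ℝ)
    (hg : ∀ k l, ‖star (v k) * v l - (if k = l then a k * a k else 0)‖ ≤ e)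
    (sg : ι → ℝ) (hs : ∀ k, sg k * sg k = 1) (hs1 : ∀ k, |sg k| ≤ 1) :
    ‖∑ k, sg k • (star (v k) * (∑ l, sg l • (v l * star (v l))) * v k) -
      ∑ k, a k * a k * (a k * a k)‖ ≤ (Fintype.card ι : ℝ) ^ 2 * (2 * e) := by
  have h : ∑ k, sg k • (star (v k) * (∑ l, sg l • (v l * star (v l))) * v k) -
      ∑ k, a k * a k * (a k * a k) = ∑ k, ∑ l, (sg k * sg l) •
        (star (v k) * v l * (star (v l) * v k) - (if k = l then a k * a k else 0) *
          (if l = k then a l * a l else 0)) := by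
    rw [← Finset.sum_sub_distrib]
    refine Finset.sum_congr rfl fun k _ => ?_
    have h1 : ∑ l, (sg k * sg l) • ((if k = l then a k * a k else 0) *
        (if l = k then a l * a l else 0)) = a k * a k * (a k * a k) := by
      rw [Finset.sum_eq_single k]
      · rw [if_pos rfl, hs, one_smul]
      · intro l _ hl
        rw [if_neg hl, mul_zero, smul_zero]
      · intro hk
        exact absurd (Finset.mem_univ k) hk
    simp only [smul_sub, Finset.sum_sub_distrib]
    rw [h1]
    congr 1
    rw [Finset.mul_sum, Finset.sum_mul, Finset.smul_sum]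
    refine Finset.sum_congr rfl fun l _ => ?_
    rw [mul_smul_comm, smul_mul_assoc, smul_smul]
    congr 1
    simp only [mul_assoc]
  rw [h]
  calc _ ≤ ∑ k : ι, ∑ l : ι, 2 * e := by
        refine (norm_sum_le _ _).trans (Finset.sum_le_sum fun k _ =>
          (norm_sum_le _ _).trans (Finset.sum_le_sum fun l _ => ?_))
        rw [norm_smul, Real.norm_eq_abs, abs_mul]
        have hab : |sg k| * |sg l| ≤ 1 := by
          calc _ ≤ (1 : ℝ) * 1 := mul_le_mul (hs1 k) (hs1 l) (abs_nonneg _) zero_le_one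
            _ = 1 := one_mul 1
        have hb : ‖star (v k) * v l * (star (v l) * v k) - (if k = l then a k * a k else 0) *
          (if l = k then a l * a l else 0)‖ ≤ 2 * e := by
          refine term_est (hg k l) (hg l k) ?_ ?_
          · refine (norm_mul_le _ _).trans ?_
            rw [norm_star]
            calc _ ≤ (1 : ℝ) * 1 := mul_le_mul (hv1 l) (hv1 k) (norm_nonneg _) zero_le_one
              _ = 1 := one_mul 1
          · split_ifs
            · refine (norm_mul_le _ _).trans ?_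
              calc _ ≤ (1 : ℝ) * 1 := mul_le_mul (ha1 k) (ha1 k) (norm_nonneg _) zero_le_one
                _ = 1 := one_mul 1
            · simp
        calc _ ≤ 1 * (2 * e) := mul_le_mul hab hb (norm_nonneg _) zero_le_one
          _ = 2 * e := one_mul _
    _ = _ := by
        simp only [Finset.sum_const, Finset.card_univ, nsmul_eq_mul]
        ring

variable [PartialOrder D] [StarOrderedRing D]

theorem norm_row_le {ι : Type*} [Fintype ι] [DecidableEq ι] (a v : ι → D)
    (ha : ∀ k, 0 ≤ a k) (ha1 : ∀ k, ‖a k‖ ≤ 1)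
    (hv1 : ∀ k, ‖v k‖ ≤ 1) (e : ℝ) (he : 0 ≤ e)
    (hg : ∀ k l, ‖star (v k) * v l - (if k = l then a k * a k else 0)‖ ≤ e) :
    ‖∑ k, v k * star (v k)‖ ≤ 1 + (Fintype.card ι : ℝ) ^ 2 * e := by
  set P : D := ∑ k, v k * star (v k) with hP
  have hP0 : 0 ≤ P := Finset.sum_nonneg fun k _ => mul_star_self_nonneg _
  have hPP : P * P = ∑ k, v k * (a k * a k) * star (v k) + ∑ k, ∑ l,
      v k * (star (v k) * v l - (if k = l then a k * a k else 0)) * star (v l) := by
    rw [hP, Finset.sum_mul_sum, ← Finset.sum_add_distrib]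
    refine Finset.sum_congr rfl fun k _ => ?_
    have h1 : v k * (a k * a k) * star (v k) =
        ∑ l, v k * (if k = l then a k * a k else 0) * star (v l) := by
      rw [Finset.sum_eq_single k]
      · rw [if_pos rfl]
      · intro l _ hl
        rw [if_neg (Ne.symm hl), mul_zero, zero_mul]
      · intro hk
        exact absurd (Finset.mem_univ k) hk
    rw [h1, ← Finset.sum_add_distrib]
    refine Finset.sum_congr rfl fun l _ => ?_
    noncomm_ring
  have hX : ‖∑ k, v k * (a k * a k) * star (v k)‖ ≤ ‖P‖ := by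
    refine CStarAlgebra.norm_le_norm_of_nonneg_of_le ?_ ?_
    · refine Finset.sum_nonneg fun k _ => ?_
      have h1 : 0 ≤ a k * a k := (IsSelfAdjoint.of_nonneg (ha k)).mul_self_nonneg
      exact star_right_conjugate_nonneg h1 (v k)
    · refine Finset.sum_le_sum fun k _ => ?_
      have h1 : 0 ≤ a k * a k := (IsSelfAdjoint.of_nonneg (ha k)).mul_self_nonneg
      refine (CStarAlgebra.star_right_conjugate_le_norm_smul (IsSelfAdjoint.of_nonneg h1)).trans ?_
      have h2 : ‖a k * a k‖ ≤ 1 := by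
        refine (norm_mul_le _ _).trans ?_
        calc _ ≤ (1 : ℝ) * 1 := mul_le_mul (ha1 k) (ha1 k) (norm_nonneg _) zero_le_one
          _ = 1 := one_mul 1
      calc ‖a k * a k‖ • (v k * star (v k)) ≤ (1 : ℝ) • (v k * star (v k)) :=
            smul_le_smul_of_nonneg_right h2 (mul_star_self_nonneg _)
        _ = _ := one_smul _ _
  have hE : ‖∑ k, ∑ l, v k * (star (v k) * v l - (if k = l then a k * a k else 0)) *
      star (v l)‖ ≤ (Fintype.card ι : ℝ) ^ 2 * e := by
    calc _ ≤ ∑ k : ι, ∑ l : ι, e := by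
          refine (norm_sum_le _ _).trans (Finset.sum_le_sum fun k _ =>
            (norm_sum_le _ _).trans (Finset.sum_le_sum fun l _ => ?_))
          refine (norm_mul_le _ _).trans ?_
          rw [norm_star]
          calc _ ≤ e * 1 := by
                refine mul_le_mul ((norm_mul_le _ _).trans ?_) (hv1 l) (norm_nonneg _) he
                calc _ ≤ 1 * e := mul_le_mul (hv1 k) (hg k l) (norm_nonneg _) zero_le_one
                  _ = e := one_mul e
            _ = e := mul_one e
      _ = _ := by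
          simp only [Finset.sum_const, Finset.card_univ, nsmul_eq_mul]
          ring
  have hsq : ‖P‖ * ‖P‖ = ‖P * P‖ := by
    have h1 := CStarRing.norm_star_mul_self (x := P)
    rw [(IsSelfAdjoint.of_nonneg hP0).star_eq] at h1
    exact h1.symm
  have hfin : ‖P‖ * ‖P‖ ≤ ‖P‖ + (Fintype.card ι : ℝ) ^ 2 * e := by
    rw [hsq, hPP]
    exact (norm_add_le _ _).trans (add_le_add hX hE)
  have hK : 0 ≤ (Fintype.card ι : ℝ) ^ 2 * e := by positivity
  by_contra hcon
  push Not at hcon
  nlinarith [norm_nonneg P]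

/-- symmetric order bounds give a norm bound -/
theorem norm_le_three {T Q : D} (h1 : T ≤ Q) (h2 : -Q ≤ T) : ‖T‖ ≤ 3 * ‖Q‖ := by
  have h3 : 0 ≤ T + Q := by
    have := add_le_add_left h2 Q
    simpa [add_comm] using this
  have h4 : T + Q ≤ (2 : ℝ) • Q := by
    rw [two_smul]
    exact add_le_add h1 le_rfl
  have h5 := CStarAlgebra.norm_le_norm_of_nonneg_of_le h3 h4
  rw [norm_smul, Real.norm_of_nonneg (by norm_num)] at h5
  calc ‖T‖ = ‖(T + Q) - Q‖ := by rw [add_sub_cancel_right]
    _ ≤ ‖T + Q‖ + ‖Q‖ := norm_sub_le _ _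
    _ ≤ 3 * ‖Q‖ := by linarith

theorem lemA {ι : Type*} [Fintype ι] (a x E : ι → D) (ha : ∀ k, 0 ≤ a k) (η : ℝ)
    (hE1 : ∀ k, E k ≤ η • (a k * a k)) (hE2 : ∀ k, -(η • (a k * a k)) ≤ E k) :
    ‖∑ k, star (x k) * E k * x k‖ ≤ 3 * ‖η • ∑ k, star (a k * x k) * (a k * x k)‖ := by
  have hc : ∀ k, star (x k) * (η • (a k * a k)) * x k =
      η • (star (a k * x k) * (a k * x k)) := by
    intro k
    rw [star_mul, (IsSelfAdjoint.of_nonneg (ha k)).star_eq, mul_smul_comm, smul_mul_assoc]
    congr 1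
    simp only [mul_assoc]
  refine norm_le_three ?_ ?_
  · rw [Finset.smul_sum]
    refine Finset.sum_le_sum fun k _ => ?_
    rw [← hc]
    exact star_left_conjugate_le_conjugate (hE1 k) (x k)
  · rw [Finset.smul_sum, ← Finset.sum_neg_distrib]
    refine Finset.sum_le_sum fun k _ => ?_
    rw [← hc]
    have := star_left_conjugate_le_conjugate (hE2 k) (x k)
    rwa [mul_neg, neg_mul] at this

omit [PartialOrder D] [StarOrderedRing D] in
theorem diag_index (hD : ∀ (n : ℕ) (a : Fin n → D) (ε : ℝ), 0 < ε → ∃ d : Fin n → D,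
      (∀ i, ‖d i‖ ≤ 1) ∧
      ∀ i j, ‖star (a i * d i) * (a j * d j) - (if i = j then star (a i) * a i else 0)‖ < ε)
    {ι : Type*} [Fintype ι] [DecidableEq ι] (a : ι → D) (ε : ℝ) (hε : 0 < ε) :
    ∃ d : ι → D, (∀ i, ‖d i‖ ≤ 1) ∧
      ∀ i j, ‖star (a i * d i) * (a j * d j) - (if i = j then star (a i) * a i else 0)‖ < ε := by
  obtain ⟨d, h1, h2⟩ := hD (Fintype.card ι) (fun k => a ((Fintype.equivFin ι).symm k)) ε hε
  refine ⟨fun k => d (Fintype.equivFin ι k), fun k => h1 _, fun i j => ?_⟩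
  have h3 := h2 (Fintype.equivFin ι i) (Fintype.equivFin ι j)
  simpa only [Equiv.symm_apply_apply, EmbeddingLike.apply_eq_iff_eq] using h3

/-- part D2 of row D: almost orthogonal copies and the perturbation -/
theorem core (hD : ∀ (n : ℕ) (a : Fin n → D) (ε : ℝ), 0 < ε → ∃ d : Fin n → D,
      (∀ i, ‖d i‖ ≤ 1) ∧
      ∀ i j, ‖star (a i * d i) * (a j * d j) - (if i = j then star (a i) * a i else 0)‖ < ε)
    (m : ℕ) (a : Fin m → D) (ha : ∀ i, 0 ≤ a i) (hsum : ‖∑ i, a i * a i‖ ≤ 1) (d0 : D)
    (σ : Fin m → ℝ) (η : ℝ) (hη : 0 ≤ η)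
    (hE1 : ∀ i, a i * d0 * a i - σ i • (a i * a i) ≤ η • (a i * a i))
    (hE2 : ∀ i, -(η • (a i * a i)) ≤ a i * d0 * a i - σ i • (a i * a i))
    (r : ℝ) (hr : 0 ≤ r) (ε : ℝ) (hε : 0 < ε) :
    ∃ x x' : Fin m → D, (∀ i, ‖x i‖ ≤ 1) ∧ (∀ i, ‖x' i‖ ≤ 1) ∧ ∃ z : D,
      z = r • ∑ i, (a i * x i * star (a i * x i) - a i * x' i * star (a i * x' i)) ∧
      ‖z‖ ≤ 4 * r ∧
      ‖∑ i, (star (a i * x i) * (a i * x i) - star (a i * x' i) * (a i * x' i))‖ ≤ ε ∧
      ‖∑ i, (star (a i * x i) * (d0 + z) * (a i * x i) -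
          star (a i * x' i) * (d0 + z) * (a i * x' i)) -
        (2 * r) • ∑ i, a i * a i * (a i * a i)‖ ≤ 12 * η + ε := by
  set S : ℝ := ∑ i, |σ i| with hS
  have hS0 : 0 ≤ S := Finset.sum_nonneg fun i _ => abs_nonneg _
  have hSi : ∀ i, |σ i| ≤ S := fun i =>
    Finset.single_le_sum (f := fun i => |σ i|) (fun _ _ => abs_nonneg _) (Finset.mem_univ i)
  have hm0 : (0 : ℝ) ≤ m := Nat.cast_nonneg m
  set C : ℝ := (m : ℝ) ^ 2 + 3 * m + 2 * m * S + 8 * r * m ^ 2 + 1 with hC
  have hC0 : 0 < C := by positivity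
  set e : ℝ := min 1 ε / C with he
  have hmin : 0 < min 1 ε := lt_min one_pos hε
  have he0 : 0 < e := div_pos hmin hC0
  have heC : e * C = min 1 ε := div_mul_cancel₀ _ hC0.ne'
  have b1 : (m : ℝ) ^ 2 * e ≤ 1 := by
    have : e * C ≤ 1 := by rw [heC]; exact min_le_left _ _
    have h2 : 0 ≤ e * (3 * m + 2 * m * S + 8 * r * m ^ 2 + 1) := by positivity
    nlinarith
  have b2 : (m : ℝ) * e ≤ 1 := by
    have : e * C ≤ 1 := by rw [heC]; exact min_le_left _ _
    have h2 : 0 ≤ e * ((m : ℝ) ^ 2 + 2 * m + 2 * m * S + 8 * r * m ^ 2 + 1) := by positivity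
    nlinarith
  have b3 : 2 * (m : ℝ) * e ≤ ε := by
    have : e * C ≤ ε := by rw [heC]; exact min_le_right _ _
    have h2 : 0 ≤ e * ((m : ℝ) ^ 2 + m + 2 * m * S + 8 * r * m ^ 2 + 1) := by positivity
    nlinarith
  have b4 : 2 * (m : ℝ) * S * e + 8 * r * m ^ 2 * e ≤ ε := by
    have : e * C ≤ ε := by rw [heC]; exact min_le_right _ _
    have h2 : 0 ≤ e * ((m : ℝ) ^ 2 + 3 * m + 1) := by positivity
    nlinarith
  have ha1 : ∀ i, ‖a i‖ ≤ 1 := by
    intro i
    have h0 : ∀ j, 0 ≤ a j * a j := fun j => (IsSelfAdjoint.of_nonneg (ha j)).mul_self_nonneg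
    have h1 : ‖a i * a i‖ ≤ 1 := (CStarAlgebra.norm_le_norm_of_nonneg_of_le (h0 i)
      (Finset.single_le_sum (f := fun j => a j * a j) (fun j _ => h0 j)
        (Finset.mem_univ i))).trans hsum
    have h2 := CStarRing.norm_star_mul_self (x := a i)
    rw [(IsSelfAdjoint.of_nonneg (ha i)).star_eq] at h2
    rw [h2] at h1
    nlinarith [norm_nonneg (a i)]
  obtain ⟨x, hx1, hx⟩ := diag_index hD (fun k : Fin m × Bool => a k.1) e he0
  set v : Fin m × Bool → D := fun k => a k.1 * x k with hv
  have hsa : ∀ i, star (a i) = a i := fun i => (IsSelfAdjoint.of_nonneg (ha i)).star_eq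
  have hg : ∀ k l, ‖star (v k) * v l - (if k = l then a k.1 * a k.1 else 0)‖ ≤ e := by
    intro k l
    have := (hx k l).le
    simpa only [hsa] using this
  have hv1 : ∀ k, ‖v k‖ ≤ 1 := by
    intro k
    refine (norm_mul_le _ _).trans ?_
    calc _ ≤ (1 : ℝ) * 1 := mul_le_mul (ha1 _) (hx1 k) (norm_nonneg _) zero_le_one
      _ = 1 := one_mul 1
  -- one half
  have hhalf : ∀ b : Bool, ‖∑ i, v (i, b) * star (v (i, b))‖ ≤ 2 := by
    intro b
    have h1 := norm_row_le a (fun i => v (i, b)) ha ha1 (fun i => hv1 _) e he0.le (by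
      intro i j
      have := hg (i, b) (j, b)
      simpa only [Prod.mk.injEq, and_true] using this)
    rw [Fintype.card_fin] at h1
    linarith
  have hdiag : ∀ i b, ‖star (v (i, b)) * v (i, b) - a i * a i‖ ≤ e := by
    intro i b
    have := hg (i, b) (i, b)
    simpa only [if_true] using this
  have hcol : ∀ b : Bool, ‖∑ i, star (v (i, b)) * v (i, b)‖ ≤ 2 := by
    intro b
    have h1 : ∑ i, star (v (i, b)) * v (i, b) =
        ∑ i, (star (v (i, b)) * v (i, b) - a i * a i) + ∑ i, a i * a i := by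
      rw [← Finset.sum_add_distrib]
      exact Finset.sum_congr rfl fun i _ => (sub_add_cancel _ _).symm
    rw [h1]
    have h2 : ‖∑ i, (star (v (i, b)) * v (i, b) - a i * a i)‖ ≤ m * e := by
      refine (norm_sum_le _ _).trans ((Finset.sum_le_sum fun i _ => hdiag i b).trans ?_)
      simp [Finset.sum_const, Finset.card_univ]
    linarith [norm_add_le (∑ i, (star (v (i, b)) * v (i, b) - a i * a i)) (∑ i, a i * a i)]
  set sg : Fin m × Bool → ℝ := fun k => if k.2 then 1 else -1 with hsg
  have hs : ∀ k, sg k * sg k = 1 := by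
    intro k
    simp only [hsg]
    split_ifs <;> norm_num
  have hs1 : ∀ k, |sg k| ≤ 1 := by
    intro k
    simp only [hsg]
    split_ifs <;> norm_num
  have hB := lemB (fun k : Fin m × Bool => a k.1) v (fun k => ha1 _) hv1 e hg sg hs hs1
  set Z : D := ∑ l, sg l • (v l * star (v l)) with hZ
  have hZ2 : Z = ∑ i, (v (i, true) * star (v (i, true)) - v (i, false) * star (v (i, false))) := by
    rw [hZ, Fintype.sum_prod_type]
    refine Finset.sum_congr rfl fun i _ => ?_
    rw [Fintype.sum_bool]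
    simp only [hsg, if_true, one_smul]
    simp [sub_eq_add_neg]
  have hZn : ‖Z‖ ≤ 4 := by
    rw [hZ2, Finset.sum_sub_distrib]
    refine (norm_sub_le _ _).trans ?_
    linarith [hhalf true, hhalf false]
  have hBsum : ∑ k, sg k • (star (v k) * Z * v k) =
      ∑ i, (star (v (i, true)) * Z * v (i, true) - star (v (i, false)) * Z * v (i, false)) := by
    rw [Fintype.sum_prod_type]
    refine Finset.sum_congr rfl fun i _ => ?_
    rw [Fintype.sum_bool]
    simp only [hsg, if_true, one_smul]
    simp [sub_eq_add_neg]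
  have ha4 : ∑ k : Fin m × Bool, a k.1 * a k.1 * (a k.1 * a k.1) =
      (2 : ℝ) • ∑ i, a i * a i * (a i * a i) := by
    rw [Fintype.sum_prod_type, Finset.smul_sum]
    refine Finset.sum_congr rfl fun i _ => ?_
    rw [Fintype.sum_bool, two_smul]
  rw [hBsum, ha4] at hB
  clear_value Z
  refine ⟨fun i => x (i, true), fun i => x (i, false), fun i => hx1 _, fun i => hx1 _, r • Z,
    ?_, ?_, ?_, ?_⟩
  · rw [hZ2]
  · rw [norm_smul, Real.norm_of_nonneg hr]
    nlinarith
  · change ‖∑ i, (star (v (i, true)) * v (i, true) - star (v (i, false)) * v (i, false))‖ ≤ ε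
    refine (norm_sum_le _ _).trans ?_
    have h1 : ∀ i, ‖star (v (i, true)) * v (i, true) - star (v (i, false)) * v (i, false)‖ ≤
        2 * e := by
      intro i
      have h2 : star (v (i, true)) * v (i, true) - star (v (i, false)) * v (i, false) =
          (star (v (i, true)) * v (i, true) - a i * a i) -
          (star (v (i, false)) * v (i, false) - a i * a i) := by abel
      rw [h2]
      refine (norm_sub_le _ _).trans ?_
      linarith [hdiag i true, hdiag i false]
    refine (Finset.sum_le_sum fun i _ => h1 i).trans ?_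
    simp only [Finset.sum_const, Finset.card_univ, Fintype.card_fin, nsmul_eq_mul]
    linarith
  · change ‖∑ i, (star (v (i, true)) * (d0 + r • Z) * v (i, true) -
          star (v (i, false)) * (d0 + r • Z) * v (i, false)) -
        (2 * r) • ∑ i, a i * a i * (a i * a i)‖ ≤ 12 * η + ε
    set E : Fin m → D := fun i => a i * d0 * a i - σ i • (a i * a i) with hE
    have hsplit : ∑ i, (star (v (i, true)) * (d0 + r • Z) * v (i, true) -
          star (v (i, false)) * (d0 + r • Z) * v (i, false)) -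
        (2 * r) • ∑ i, a i * a i * (a i * a i) =
        (∑ i, star (x (i, true)) * E i * x (i, true) -
          ∑ i, star (x (i, false)) * E i * x (i, false)) +
        ∑ i, σ i • ((star (v (i, true)) * v (i, true) - a i * a i) -
          (star (v (i, false)) * v (i, false) - a i * a i)) +
        r • (∑ i, (star (v (i, true)) * Z * v (i, true) -
          star (v (i, false)) * Z * v (i, false)) - (2 : ℝ) • ∑ i, a i * a i * (a i * a i)) := by
      rw [smul_sub, smul_smul, mul_comm r 2, ← add_sub_assoc]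
      congr 1
      rw [Finset.smul_sum, ← Finset.sum_sub_distrib, ← Finset.sum_add_distrib,
        ← Finset.sum_add_distrib]
      refine Finset.sum_congr rfl fun i _ => ?_
      have h1 : ∀ b, star (v (i, b)) * (d0 + r • Z) * v (i, b) =
          star (x (i, b)) * (a i * d0 * a i) * x (i, b) +
            r • (star (v (i, b)) * Z * v (i, b)) := by
        intro b
        rw [mul_add, add_mul, mul_smul_comm, smul_mul_assoc]
        congr 1
        simp only [hv, star_mul, hsa, mul_assoc]
      have h2 : ∀ b, star (x (i, b)) * E i * x (i, b) =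
          star (x (i, b)) * (a i * d0 * a i) * x (i, b) -
            σ i • (star (v (i, b)) * v (i, b)) := by
        intro b
        simp only [hE]
        rw [mul_sub, sub_mul, mul_smul_comm, smul_mul_assoc]
        congr 2
        simp only [hv, star_mul, hsa, mul_assoc]
      rw [h1, h1, h2, h2]
      simp only [smul_sub]
      abel
    rw [hsplit]
    have hA : ∀ b, ‖∑ i, star (x (i, b)) * E i * x (i, b)‖ ≤ 6 * η := by
      intro b
      refine (lemA a (fun i => x (i, b)) E ha η hE1 hE2).trans ?_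
      rw [norm_smul, Real.norm_of_nonneg hη]
      have := hcol b
      change 3 * (η * ‖∑ i, star (v (i, b)) * v (i, b)‖) ≤ 6 * η
      nlinarith
    have hT2 : ‖∑ i, σ i • ((star (v (i, true)) * v (i, true) - a i * a i) -
          (star (v (i, false)) * v (i, false) - a i * a i))‖ ≤ 2 * m * S * e := by
      have h1 : ∀ i, ‖σ i • ((star (v (i, true)) * v (i, true) - a i * a i) -
          (star (v (i, false)) * v (i, false) - a i * a i))‖ ≤ S * (2 * e) := by
        intro i
        rw [norm_smul, Real.norm_eq_abs]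
        refine mul_le_mul (hSi i) ((norm_sub_le _ _).trans ?_) (norm_nonneg _) hS0
        linarith [hdiag i true, hdiag i false]
      refine (norm_sum_le _ _).trans ((Finset.sum_le_sum fun i _ => h1 i).trans ?_)
      simp only [Finset.sum_const, Finset.card_univ, Fintype.card_fin, nsmul_eq_mul]
      nlinarith
    have hT3 : ‖r • (∑ i, (star (v (i, true)) * Z * v (i, true) -
          star (v (i, false)) * Z * v (i, false)) - (2 : ℝ) • ∑ i, a i * a i * (a i * a i))‖ ≤
        8 * r * m ^ 2 * e := by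
      rw [norm_smul, Real.norm_of_nonneg hr]
      have h1 : (Fintype.card (Fin m × Bool) : ℝ) = 2 * m := by
        simp [mul_comm]
      rw [h1] at hB
      calc _ ≤ r * ((2 * (m : ℝ)) ^ 2 * (2 * e)) := mul_le_mul_of_nonneg_left hB hr
        _ = 8 * r * m ^ 2 * e := by ring
    refine (norm_add_le _ _).trans ?_
    refine (add_le_add ((norm_add_le _ _).trans (add_le_add (norm_sub_le _ _) le_rfl))
      le_rfl).trans ?_
    linarith [hA true, hA false]

end

end Vale.Agent.P133.R2.H917
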