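import Vale.Agent.P133.R2.H307.Spec2
import Vale.Agent.P133.R2.H157.Pieces
import Vale.Agent.P133.R2.H917.Core

/-!
P133 (helper917): density of certificates from diagonalization (row D).
-/

open scoped ComplexOrder

namespace Vale.Agent.P133.R2.H917

open Vale.Agent.P133.R2.H307 Vale.Agent.P133.R2.H157

universe u

section

variable {D : Type u} [NonUnitalCStarAlgebra D] [PartialOrder D] [StarOrderedRing D]

/-- compression onto a smaller positive element -/
theorem compress (x q : D) (hx : 0 ≤ x) (hxq : x ≤ q) (s : ℝ) (hs : 0 < s) :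
    ∃ v : D, ‖v‖ ≤ 1 ∧ ‖star v * q * v - x‖ ≤ s := by
  have hq : 0 ≤ q := hx.trans hxq
  set X : Unitization ℂ D := (x : Unitization ℂ D) with hX
  set Q : Unitization ℂ D := (q : Unitization ℂ D) with hQ
  have hX0 : 0 ≤ X := by rw [hX, Unitization.inr_nonneg_iff]; exact hx
  have hQ0 : 0 ≤ Q := by rw [hQ, Unitization.inr_nonneg_iff]; exact hq
  have hXQ : X ≤ Q := by
    rw [← sub_nonneg, hX, hQ, ← Unitization.inr_sub, Unitization.inr_nonneg_iff, sub_nonneg]
    exact hxq
  set b : Unitization ℂ D := Q + algebraMap ℝ (Unitization ℂ D) s with hb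
  have hs0 : 0 ≤ algebraMap ℝ (Unitization ℂ D) s := by
    rw [Algebra.algebraMap_eq_smul_one]
    exact smul_nonneg hs.le zero_le_one
  have hsp : IsStrictlyPositive (algebraMap ℝ (Unitization ℂ D) s) := by
    rw [IsStrictlyPositive.iff_of_unital]
    exact ⟨hs0, (IsUnit.mk0 s hs.ne').map (algebraMap ℝ (Unitization ℂ D))⟩
  have hbs : algebraMap ℝ (Unitization ℂ D) s ≤ b := by
    rw [hb]
    exact le_add_of_nonneg_left hQ0
  have hbp : IsStrictlyPositive b := by
    rw [IsStrictlyPositive.iff_of_unital]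
    exact ⟨hs0.trans hbs, CStarAlgebra.isUnit_of_le _ hbs hsp⟩
  have hXb : X ≤ b := hXQ.trans (by rw [hb]; exact le_add_of_nonneg_right hs0)
  set y : Unitization ℂ D := b ^ (-(1 / 2) : ℝ) with hy
  have hy0 : 0 ≤ y := CFC.rpow_nonneg
  have hys : star y = y := (IsSelfAdjoint.of_nonneg hy0).star_eq
  have hyb : y * b * y = 1 := CFC.conjugate_rpow_neg_one_half b hbp
  set c : D := CFC.sqrt x with hc
  have hc0 : 0 ≤ c := CFC.sqrt_nonneg x
  have hcc : c * c = x := CFC.sqrt_mul_sqrt_self x hx
  set C : Unitization ℂ D := (c : Unitization ℂ D) with hC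
  have hC0 : 0 ≤ C := by rw [hC, Unitization.inr_nonneg_iff]; exact hc0
  have hCC : C * C = X := by rw [hC, hX, ← Unitization.inr_mul, hcc]
  have hCs : star C = C := (IsSelfAdjoint.of_nonneg hC0).star_eq
  have hsq : CFC.sqrt X = C := CFC.sqrt_unique hCC hC0
  have hn : ‖C * y‖ ≤ 1 := by
    rw [← hsq]
    exact (le_iff_norm_sqrt_mul_rpow X b hX0 hbp).1 hXb
  set v : D := (y * C).snd with hv
  have hvy : (v : Unitization ℂ D) = y * C := by
    refine Unitization.ext ?_ ?_
    · simp [hC]
    · simp [hv]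
  have hnv : ‖(v : Unitization ℂ D)‖ ≤ 1 := by
    rw [hvy, ← norm_star, star_mul, hCs, hys]
    exact hn
  have hkey : star (v : Unitization ℂ D) * Q * (v : Unitization ℂ D) - X =
      -(s • (star (v : Unitization ℂ D) * (v : Unitization ℂ D))) := by
    have h1 : y * Q * y = 1 - s • (y * y) := by
      rw [← hyb, hb, mul_add, add_mul, Algebra.algebraMap_eq_smul_one, mul_smul_comm, mul_one,
        smul_mul_assoc, add_sub_cancel_right]
    rw [hvy, star_mul, hys, hCs]
    have h2 : C * y * Q * (y * C) = C * (y * Q * y) * C := by simp only [mul_assoc]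
    have h3 : C * y * (y * C) = C * (y * y) * C := by simp only [mul_assoc]
    rw [h2, h3, h1, mul_sub, sub_mul, mul_one, hCC, mul_smul_comm, smul_mul_assoc]
    abel
  refine ⟨v, by rwa [Unitization.norm_inr] at hnv, ?_⟩
  have h4 : ‖((star v * q * v - x : D) : Unitization ℂ D)‖ ≤ s := by
    rw [Unitization.inr_sub, Unitization.inr_mul, Unitization.inr_mul, Unitization.inr_star,
      hkey, norm_neg, norm_smul, Real.norm_of_nonneg hs.le, CStarRing.norm_star_mul_self]
    have : ‖(v : Unitization ℂ D)‖ * ‖(v : Unitization ℂ D)‖ ≤ 1 := by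
      nlinarith [norm_nonneg (v : Unitization ℂ D)]
    nlinarith
  rwa [Unitization.norm_inr] at h4

/-- the piecewise linear function which is `0` up to `τ` and `1` from `2 τ` on -/
noncomputable def pl (τ t : ℝ) : ℝ := min (max (t / τ - 1) 0) 1

theorem pl_cont (τ : ℝ) : Continuous (pl τ) := by
  unfold pl
  fun_prop

theorem pl_zero (τ : ℝ) : pl τ 0 = 0 := by simp [pl]

theorem pl_nonneg (τ t : ℝ) : 0 ≤ pl τ t := le_min (le_max_right _ _) zero_le_one

theorem pl_le_one (τ t : ℝ) : pl τ t ≤ 1 := min_le_right _ _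

theorem pl_eq_zero {τ t : ℝ} (hτ : 0 < τ) (h : t ≤ τ) : pl τ t = 0 := by
  have : t / τ - 1 ≤ 0 := by
    rw [sub_nonpos, div_le_one hτ]
    exact h
  simp [pl, max_eq_right this]

theorem pl_eq_one {τ t : ℝ} (hτ : 0 < τ) (h : 2 * τ ≤ t) : pl τ t = 1 := by
  have h1 : 2 ≤ t / τ := by
    rw [le_div_iff₀ hτ]
    exact h
  have : 1 ≤ max (t / τ - 1) 0 := le_max_of_le_left (by linarith)
  simp [pl, min_eq_right this]

omit [PartialOrder D] [StarOrderedRing D] in
theorem mem_herS {a z : D} (w : D) (hz : z = a * (w * a)) (hs : IsSelfAdjoint z) : z ∈ herS a := by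
  refine ⟨?_, hs⟩
  apply Submodule.le_topologicalClosure
  exact ⟨w, by simp [hz]⟩

theorem dense_of_diag (hD : ∀ (n : ℕ) (a : Fin n → D) (ε : ℝ), 0 < ε → ∃ d : Fin n → D,
      (∀ i, ‖d i‖ ≤ 1) ∧
      ∀ i j, ‖star (a i * d i) * (a j * d j) - (if i = j then star (a i) * a i else 0)‖ < ε)
    (a : D) (ha : 0 ≤ a) (δ : ℝ) (hδ : 0 < δ) (d : D) (hd : d ∈ herS a) (ρ : ℝ) (hρ : 0 < ρ)
    (M : ℝ) (hM : 0 < M) : ∃ z ∈ herS a, ‖z‖ ≤ ρ ∧
      ∃ (n : ℕ) (w w' : Fin n → D) (κ : ℝ), Cert a δ (d + z) M κ w w' := by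
  obtain ⟨hdc, hds⟩ := hd
  have hds' : IsSelfAdjoint d := hds
  have has : IsSelfAdjoint a := IsSelfAdjoint.of_nonneg ha
  -- an element of the range close to `d`
  obtain ⟨w0, hw0⟩ : ∃ w0 : D, ‖d - a * (w0 * a)‖ < ρ / 8 := by
    have h1 : d ∈ closure (LinearMap.range ((LinearMap.mulLeft ℝ a).comp
        (LinearMap.mulRight ℝ a)) : Set D) := hdc
    obtain ⟨y, ⟨w0, rfl⟩, h2⟩ := Metric.mem_closure_iff.1 h1 (ρ / 8) (by positivity)
    refine ⟨w0, ?_⟩
    rw [dist_eq_norm] at h2
    simpa using h2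
  set τ : ℝ := min (δ / 8) (ρ / (64 * (‖w0‖ * ‖a‖ + 1))) with hτ
  have hwa : 0 ≤ ‖w0‖ * ‖a‖ := by positivity
  have hτ0 : 0 < τ := lt_min (by positivity) (by positivity)
  have hτδ : τ ≤ δ / 8 := min_le_left _ _
  have hτρ : τ * (64 * (‖w0‖ * ‖a‖ + 1)) ≤ ρ := by
    rw [← le_div_iff₀ (by positivity)]
    exact min_le_right _ _
  -- the functions of `a`
  set g : D := cfcₙ (pl (4 * τ)) a with hg
  set e : D := cfcₙ (pl (2 * τ)) a with he
  set h : D := cfcₙ (pl τ) a with hh
  set c : D := cfcₙ (fun t => pl τ t / max t τ) a with hc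
  have cc : Continuous (fun t : ℝ => pl τ t / max t τ) := by
    refine (pl_cont τ).div (continuous_id.max continuous_const) fun t => ?_
    exact (lt_of_lt_of_le hτ0 (le_max_right _ _)).ne'
  have cz : (fun t : ℝ => pl τ t / max t τ) 0 = 0 := by simp [pl_zero]
  have h4 : 0 < 4 * τ := by positivity
  have h2 : 0 < 2 * τ := by positivity
  have heg : e * g = g := by
    rw [he, hg, ← cfcₙ_mul (pl (2 * τ)) (pl (4 * τ)) a (pl_cont _).continuousOn (pl_zero _)
      (pl_cont _).continuousOn (pl_zero _)]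
    congr 1
    funext t
    by_cases ht : t ≤ 4 * τ
    · rw [pl_eq_zero h4 ht, mul_zero]
    · rw [pl_eq_one h2 (by linarith), one_mul]
  have hge : g * e = g := by
    rw [he, hg, ← cfcₙ_mul (pl (4 * τ)) (pl (2 * τ)) a (pl_cont _).continuousOn (pl_zero _)
      (pl_cont _).continuousOn (pl_zero _)]
    congr 1
    funext t
    by_cases ht : t ≤ 4 * τ
    · rw [pl_eq_zero h4 ht, zero_mul]
    · rw [pl_eq_one h2 (by linarith), mul_one]
  have hhe : h * e = e := by
    rw [he, hh, ← cfcₙ_mul (pl τ) (pl (2 * τ)) a (pl_cont _).continuousOn (pl_zero _)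
      (pl_cont _).continuousOn (pl_zero _)]
    congr 1
    funext t
    by_cases ht : t ≤ 2 * τ
    · rw [pl_eq_zero h2 ht, mul_zero]
    · rw [pl_eq_one hτ0 (by linarith), one_mul]
  have heh : e * h = e := by
    rw [he, hh, ← cfcₙ_mul (pl (2 * τ)) (pl τ) a (pl_cont _).continuousOn (pl_zero _)
      (pl_cont _).continuousOn (pl_zero _)]
    congr 1
    funext t
    by_cases ht : t ≤ 2 * τ
    · rw [pl_eq_zero h2 ht, zero_mul]
    · rw [pl_eq_one hτ0 (by linarith), mul_one]
  have hptc : ∀ t : ℝ, t * (pl τ t / max t τ) = pl τ t := by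
    intro t
    by_cases ht : t ≤ τ
    · rw [pl_eq_zero hτ0 ht, zero_div, mul_zero]
    · push Not at ht
      have ht0 : t ≠ 0 := (hτ0.trans ht).ne'
      rw [max_eq_left ht.le]
      field_simp
  have hac : a * c = h := by
    have h1 : cfcₙ (fun t : ℝ => t * (pl τ t / max t τ)) a =
        cfcₙ (fun t : ℝ => t) a * c := by
      rw [hc, ← cfcₙ_mul (fun t : ℝ => t) (fun t => pl τ t / max t τ) a continuousOn_id rfl
        cc.continuousOn cz]
    rw [cfcₙ_id' ℝ a] at h1
    rw [← h1, hh]
    congr 1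
    funext t
    exact hptc t
  have hca : c * a = h := by
    have h1 : cfcₙ (fun t : ℝ => (pl τ t / max t τ) * t) a =
        c * cfcₙ (fun t : ℝ => t) a := by
      rw [hc, ← cfcₙ_mul (fun t => pl τ t / max t τ) (fun t : ℝ => t) a
        cc.continuousOn cz continuousOn_id rfl]
    rw [cfcₙ_id' ℝ a] at h1
    rw [← h1, hh]
    congr 1
    funext t
    rw [mul_comm]
    exact hptc t
  have hgs : IsSelfAdjoint g := cfcₙ_predicate _ a
  have he0 : 0 ≤ e := cfcₙ_nonneg fun t _ => pl_nonneg _ _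
  have hhs : IsSelfAdjoint h := cfcₙ_predicate _ a
  have he1 : ‖e‖ ≤ 1 := by
    refine norm_cfcₙ_le fun t _ => ?_
    rw [Real.norm_of_nonneg (pl_nonneg _ _)]
    exact pl_le_one _ _
  have hg1 : ‖g‖ ≤ 1 := by
    refine norm_cfcₙ_le fun t _ => ?_
    rw [Real.norm_of_nonneg (pl_nonneg _ _)]
    exact pl_le_one _ _
  have hgsp : ∀ t ∈ quasispectrum ℝ a, ‖pl (4 * τ) t * t - t‖ ≤ 8 * τ := by
    intro t ht
    have ht0 : 0 ≤ t := quasispectrum_nonneg_of_nonneg a ha t ht
    by_cases h8 : 2 * (4 * τ) ≤ t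
    · rw [pl_eq_one h4 h8, one_mul, sub_self, norm_zero]
      positivity
    · push Not at h8
      have h1 := pl_nonneg (4 * τ) t
      have h2 := pl_le_one (4 * τ) t
      rw [Real.norm_eq_abs, abs_le]
      constructor <;> nlinarith
  have hga : ‖g * a - a‖ ≤ 8 * τ := by
    have h1 : g * a - a = cfcₙ (fun t : ℝ => pl (4 * τ) t * t - t) a := by
      have h2 : cfcₙ (fun t : ℝ => pl (4 * τ) t * t - t) a =
          cfcₙ (fun t : ℝ => pl (4 * τ) t * t) a - cfcₙ (fun t : ℝ => t) a :=
        cfcₙ_sub (fun t : ℝ => pl (4 * τ) t * t) (fun t : ℝ => t) a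
          ((pl_cont _).mul continuous_id).continuousOn (by simp) continuousOn_id rfl
      have h3 : cfcₙ (fun t : ℝ => pl (4 * τ) t * t) a = g * cfcₙ (fun t : ℝ => t) a :=
        cfcₙ_mul (pl (4 * τ)) (fun t : ℝ => t) a (pl_cont _).continuousOn (pl_zero _)
          continuousOn_id rfl
      rw [h2, h3, cfcₙ_id' ℝ a]
    rw [h1]
    exact norm_cfcₙ_le hgsp
  have hag : ‖a * g - a‖ ≤ 8 * τ := by
    have h1 : star (g * a - a) = a * g - a := by
      rw [star_sub, star_mul, hgs.star_eq, has.star_eq]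
    rw [← h1, norm_star]
    exact hga
  set d0 : D := g * d * g with hd0
  have hd0s : IsSelfAdjoint d0 := by
    rw [isSelfAdjoint_iff, hd0, star_mul, star_mul, hgs.star_eq, hds'.star_eq, mul_assoc]
  have hd0d : ‖d0 - d‖ ≤ ρ / 2 := by
    have h1 : d0 - d = g * (d - a * (w0 * a)) * g + ((g * a - a) * (w0 * a) * g +
        a * w0 * (a * g - a)) - (d - a * (w0 * a)) := by
      rw [hd0]
      noncomm_ring
    rw [h1]
    have n1 : ‖g * (d - a * (w0 * a)) * g‖ ≤ ρ / 8 := by
      refine (norm_mul_le _ _).trans ?_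
      have := (norm_mul_le g (d - a * (w0 * a)))
      have h5 : ‖g‖ * ‖d - a * (w0 * a)‖ ≤ 1 * (ρ / 8) :=
        mul_le_mul hg1 hw0.le (norm_nonneg _) zero_le_one
      calc _ ≤ (ρ / 8) * 1 := mul_le_mul (by linarith) hg1 (norm_nonneg _) (by positivity)
        _ = ρ / 8 := mul_one _
    have n2 : ‖(g * a - a) * (w0 * a) * g‖ ≤ 8 * τ * (‖w0‖ * ‖a‖) := by
      refine (norm_mul_le _ _).trans ?_
      have h5 : ‖(g * a - a) * (w0 * a)‖ ≤ 8 * τ * (‖w0‖ * ‖a‖) :=
        (norm_mul_le _ _).trans (mul_le_mul hga (norm_mul_le _ _) (norm_nonneg _) (by positivity))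
      calc _ ≤ (8 * τ * (‖w0‖ * ‖a‖)) * 1 :=
            mul_le_mul h5 hg1 (norm_nonneg _) (by positivity)
        _ = _ := mul_one _
    have n3 : ‖a * w0 * (a * g - a)‖ ≤ (‖w0‖ * ‖a‖) * (8 * τ) := by
      refine (norm_mul_le _ _).trans (mul_le_mul ?_ hag (norm_nonneg _) hwa)
      rw [mul_comm ‖w0‖]
      exact norm_mul_le _ _
    refine (norm_sub_le _ _).trans ?_
    have n4 := norm_add_le (g * (d - a * (w0 * a)) * g) ((g * a - a) * (w0 * a) * g +
        a * w0 * (a * g - a))
    have n5 := norm_add_le ((g * a - a) * (w0 * a) * g) (a * w0 * (a * g - a))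
    have n6 : 16 * (τ * (‖w0‖ * ‖a‖)) ≤ ρ / 4 := by
      have : τ * (‖w0‖ * ‖a‖) * 64 ≤ ρ := by nlinarith
      linarith
    nlinarith
  have hed0 : e * d0 = d0 := by rw [hd0, mul_assoc, ← mul_assoc, heg]
  have hd0e : d0 * e = d0 := by rw [hd0, mul_assoc, hge]
  -- parameters
  set r : ℝ := ρ / 8 with hr
  have hr0 : 0 < r := by positivity
  set κ : ℝ := r / 4 with hκ
  have hκ0 : 0 < κ := by positivity
  obtain ⟨m, s, b, hb0, -, -, -, -, hbe, hbe2, hbs⟩ :=
    pieces hd0s he0 he1 hed0 hd0e (η := κ / 48) (by positivity)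
  have hbb : ∀ i, 0 ≤ b i * b i := fun i => (IsSelfAdjoint.of_nonneg (hb0 i)).mul_self_nonneg
  obtain ⟨x, x', -, -, z0, hz0, hz0n, hu1, hu2⟩ :=
    core hD m b hb0 (by rw [hbe]; exact he1) d0 s (κ / 48) (by positivity)
      (fun i => (hbs i).1) (fun i => (hbs i).2) r hr0.le (min (κ / 4) (κ / (2 * M)))
      (lt_min (by positivity) (by positivity))
  -- `h` is a unit for the pieces
  have hbst : ∀ i, star (b i) = b i := fun i => (IsSelfAdjoint.of_nonneg (hb0 i)).star_eq
  have hhb : ∀ i, h * b i = b i := by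
    have h1 : ∑ i, (h * b i - b i) * star (h * b i - b i) = 0 := by
      have h2 : ∀ i, (h * b i - b i) * star (h * b i - b i) =
          h * (b i * b i) * h - h * (b i * b i) - (b i * b i) * h + b i * b i := by
        intro i
        rw [star_sub, star_mul, hbst, hhs.star_eq]
        noncomm_ring
      rw [Finset.sum_congr rfl fun i _ => h2 i, Finset.sum_add_distrib, Finset.sum_sub_distrib,
        Finset.sum_sub_distrib, ← Finset.sum_mul, ← Finset.mul_sum, ← Finset.sum_mul, hbe, hhe, heh]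
      abel
    intro i
    have h3 := (Finset.sum_eq_zero_iff_of_nonneg fun i _ =>
      mul_star_self_nonneg (h * b i - b i)).1 h1 i (Finset.mem_univ i)
    rw [CStarRing.mul_star_self_eq_zero_iff] at h3
    exact sub_eq_zero.1 h3
  have hbh : ∀ i, b i * h = b i := by
    intro i
    have := congrArg star (hhb i)
    rwa [star_mul, hbst, hhs.star_eq] at this
  have hz0s : IsSelfAdjoint z0 := by
    rw [hz0, isSelfAdjoint_iff, star_smul, star_trivial, star_sum]
    congr 1
    refine Finset.sum_congr rfl fun i _ => ?_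
    rw [star_sub, (IsSelfAdjoint.mul_star_self (b i * x i)).star_eq,
      (IsSelfAdjoint.mul_star_self (b i * x' i)).star_eq]
  have hpiece : ∀ (i : Fin m) (y : D), b i * y * star (b i * y) ∈ herS a := by
    intro i y
    refine mem_herS (c * b i * y * star (b i * y) * c) ?_ (IsSelfAdjoint.mul_star_self _)
    have h1 : a * (c * b i * y * star (b i * y) * c * a) =
        (a * c) * b i * y * (star y * (star (b i) * (c * a))) := by
      rw [star_mul]
      simp only [mul_assoc]
    rw [h1, hac, hca, hhb, hbst, hbh, star_mul, hbst]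
  have hz0m : z0 ∈ herS a := by
    rw [hz0]
    refine Submodule.smul_mem _ _ (Submodule.sum_mem _ fun i _ => Submodule.sub_mem _ ?_ ?_)
    · exact hpiece i (x i)
    · exact hpiece i (x' i)
  have hhg : h * g = g := by rw [← heg, ← mul_assoc, hhe]
  have hgh : g * h = g := by rw [← hge, mul_assoc, heh]
  have hd0m : d0 ∈ herS a := by
    refine mem_herS (c * d0 * c) ?_ hd0s
    have h1 : a * (c * d0 * c * a) = (a * c) * d0 * (c * a) := by simp only [mul_assoc]
    rw [h1, hac, hca, hd0]
    have h5 : h * (g * d * g) * h = (h * g) * d * (g * h) := by simp only [mul_assoc]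
    rw [h5, hhg, hgh]
  refine ⟨(d0 - d) + z0, Submodule.add_mem _ (Submodule.sub_mem _ hd0m ⟨hdc, hds⟩) hz0m, ?_, m, ?_⟩
  · refine (norm_add_le _ _).trans ?_
    rw [hr] at hz0n
    linarith
  -- the compression
  have hr1 : ramp δ a = cfcₙ (pl (δ / 2)) a := by
    unfold ramp
    congr 1
    funext t
    simp only [pl]
    congr 3
    field_simp
  set e1 : D := ramp δ a with he1'
  have hee : e1 ≤ e * e := by
    rw [hr1, he, ← cfcₙ_mul (pl (2 * τ)) (pl (2 * τ)) a (pl_cont _).continuousOn (pl_zero _)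
      (pl_cont _).continuousOn (pl_zero _)]
    refine cfcₙ_mono (fun t _ => ?_) (pl_cont _).continuousOn
      ((pl_cont _).mul (pl_cont _)).continuousOn (pl_zero _) (by simp [pl_zero])
    by_cases ht : t ≤ δ / 2
    · rw [pl_eq_zero (by positivity) ht]
      exact mul_self_nonneg _
    · rw [pl_eq_one h2 (by linarith), one_mul]
      exact pl_le_one _ _
  have he10 : 0 ≤ e1 := by
    rw [hr1]
    exact cfcₙ_nonneg fun t _ => pl_nonneg _ _
  have hrx : 0 ≤ r • e1 := smul_nonneg hr0.le he10
  have hrq : r • e1 ≤ (2 * r) • ∑ i, b i * b i * (b i * b i) := by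
    rw [mul_comm 2 r, ← smul_smul]
    exact smul_le_smul_of_nonneg_left (hee.trans hbe2) hr0.le
  obtain ⟨v, hv1, hv2⟩ := compress (r • e1) _ hrx hrq (κ / 4) (by positivity)
  refine ⟨fun i => c * b i * x i * v, fun i => c * b i * x' i * v, κ, hκ0, ?_, ?_⟩
  · have hw : ∀ (y : Fin m → D) i, star (c * b i * y i * v) * (a * a) * (c * b i * y i * v) =
        star v * (star (b i * y i) * (b i * y i)) * v := by
      intro y i
      have h1 : a * (c * b i * y i * v) = b i * y i * v := by
        have : a * (c * b i * y i * v) = (a * c) * b i * y i * v := by simp only [mul_assoc]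
        rw [this, hac, hhb]
      have h3 : star (c * b i * y i * v) * (a * a) * (c * b i * y i * v) =
          star (a * (c * b i * y i * v)) * (a * (c * b i * y i * v)) := by
        rw [star_mul a, has.star_eq]
        simp only [mul_assoc]
      rw [h3, h1, star_mul]
      simp only [mul_assoc]
    have hsum : ∑ i, (star (c * b i * x i * v) * (a * a) * (c * b i * x i * v) -
        star (c * b i * x' i * v) * (a * a) * (c * b i * x' i * v)) =
        star v * (∑ i, (star (b i * x i) * (b i * x i) - star (b i * x' i) * (b i * x' i))) * v := by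
      rw [Finset.mul_sum, Finset.sum_mul]
      refine Finset.sum_congr rfl fun i _ => ?_
      rw [hw x i, hw x' i, mul_sub, sub_mul]
    rw [hsum]
    have hn : ‖star v * (∑ i, (star (b i * x i) * (b i * x i) -
        star (b i * x' i) * (b i * x' i))) * v‖ ≤ κ / (2 * M) := by
      refine (norm_mul_le _ _).trans ?_
      have h5 : ‖star v * (∑ i, (star (b i * x i) * (b i * x i) -
          star (b i * x' i) * (b i * x' i)))‖ ≤ 1 * (κ / (2 * M)) := by
        refine (norm_mul_le _ _).trans (mul_le_mul (by rw [norm_star]; exact hv1)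
          (hu1.trans (min_le_right _ _)) (norm_nonneg _) zero_le_one)
      calc _ ≤ (1 * (κ / (2 * M))) * 1 := mul_le_mul h5 hv1 (norm_nonneg _) (by positivity)
        _ = _ := by ring
    calc _ ≤ M * (κ / (2 * M)) := mul_le_mul_of_nonneg_left hn hM.le
      _ = κ / 2 := by field_simp
      _ < κ := by linarith
  · have hdz : d + (d0 - d + z0) = d0 + z0 := by abel
    have hw : ∀ (y : Fin m → D) i, star (c * b i * y i * v) * (a * (d + (d0 - d + z0)) * a) *
        (c * b i * y i * v) = star v * (star (b i * y i) * (d0 + z0) * (b i * y i)) * v := by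
      intro y i
      have h1 : a * (c * b i * y i * v) = b i * y i * v := by
        have : a * (c * b i * y i * v) = (a * c) * b i * y i * v := by simp only [mul_assoc]
        rw [this, hac, hhb]
      have h3 : star (c * b i * y i * v) * (a * (d0 + z0) * a) * (c * b i * y i * v) =
          star (a * (c * b i * y i * v)) * (d0 + z0) * (a * (c * b i * y i * v)) := by
        rw [star_mul a, has.star_eq]
        simp only [mul_assoc]
      rw [hdz, h3, h1, star_mul]
      simp only [mul_assoc]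
    have hsum : ∑ i, (star (c * b i * x i * v) * (a * (d + (d0 - d + z0)) * a) *
          (c * b i * x i * v) -
        star (c * b i * x' i * v) * (a * (d + (d0 - d + z0)) * a) * (c * b i * x' i * v)) =
        star v * (∑ i, (star (b i * x i) * (d0 + z0) * (b i * x i) -
          star (b i * x' i) * (d0 + z0) * (b i * x' i))) * v := by
      rw [Finset.mul_sum, Finset.sum_mul]
      refine Finset.sum_congr rfl fun i _ => ?_
      rw [hw x i, hw x' i, mul_sub, sub_mul]
    rw [hsum]
    set q : D := ∑ i, (star (b i * x i) * (d0 + z0) * (b i * x i) -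
          star (b i * x' i) * (d0 + z0) * (b i * x' i)) with hq
    set q0 : D := (2 * r) • ∑ i, b i * b i * (b i * b i) with hq0
    have h4k : 4 * κ = r := by rw [hκ]; ring
    rw [h4k]
    have h7 : star v * q * v - r • e1 = star v * (q - q0) * v + (star v * q0 * v - r • e1) := by
      rw [mul_sub, sub_mul]
      abel
    rw [h7]
    have h8 : ‖star v * (q - q0) * v‖ ≤ 12 * (κ / 48) + κ / 4 := by
      refine (norm_mul_le _ _).trans ?_
      have h5 : ‖star v * (q - q0)‖ ≤ 1 * (12 * (κ / 48) + κ / 4) := by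
        refine (norm_mul_le _ _).trans (mul_le_mul (by rw [norm_star]; exact hv1)
          (hu2.trans ?_) (norm_nonneg _) zero_le_one)
        linarith [min_le_left (κ / 4) (κ / (2 * M))]
      calc _ ≤ (1 * (12 * (κ / 48) + κ / 4)) * 1 :=
            mul_le_mul h5 hv1 (norm_nonneg _) (by positivity)
        _ = _ := by ring
    refine (norm_add_le _ _).trans_lt ?_
    linarith

end

end Vale.Agent.P133.R2.H917
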